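import Vale.Agent.Chai.FinalB

/-!
# P217: Chai's invariant ideal question (Q1), all primes `p` and all heights `n`
-/

namespace Vale.Agent.Results.P217.InvariantIdeals

open Chai

/-- Hazewinkel's universal `p`-typical formal group law `H` exists and is unique, and for it, with
`F = moravaF p n H` the universal deformation over `E_0 = W(𝔽_{p^n})[[u_1, …, u_{n-1}]]` of the Honda
formal group `Γ = honda p n H`: the prime ideals of `E_0` invariant under the extended Morava
stabilizer group are exactly `I_0, …, I_n`, and the invariant radical ideals are exactly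
`I_0, …, I_n, E_0`; the same holds for invariance under `Aut(Γ)` alone. -/
theorem result (p : ℕ) [Fact p.Prime] (n : ℕ) (hn : 1 ≤ n) :
    (∃! H : FormalGroup (MvPolynomial ℕ ℤ), IsHazewinkel p H) ∧
    ∀ H : FormalGroup (MvPolynomial ℕ ℤ), IsHazewinkel p H → ∀ I : Ideal (E0 p n),
      ((I.IsPrime ∧ GnInvariant (moravaF p n H) (honda p n H) I) ↔
        ∃ h ≤ n, I = heightIdeal p n h) ∧
      ((I.IsRadical ∧ GnInvariant (moravaF p n H) (honda p n H) I) ↔
        (I = ⊤ ∨ ∃ h ≤ n, I = heightIdeal p n h)) ∧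
      ((I.IsPrime ∧ AutInvariant (moravaF p n H) (honda p n H) I) ↔
        ∃ h ≤ n, I = heightIdeal p n h) ∧
      ((I.IsRadical ∧ AutInvariant (moravaF p n H) (honda p n H) I) ↔
        (I = ⊤ ∨ ∃ h ≤ n, I = heightIdeal p n h)) := by
  refine ⟨⟨haz p, isHazewinkel_haz, fun H hH => haz_unique hH isHazewinkel_haz⟩, ?_⟩
  intro H hH I
  obtain rfl : H = haz p := haz_unique hH isHazewinkel_haz
  rw [moravaF_haz, honda_haz]
  have hA : I.IsRadical → AutInvariant (univF p n) (hazF p (prm n 0)) I →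
      (I = ⊤ ∨ ∃ h ≤ n, I = heightIdeal p n h) := fun h1 h2 =>
    eq_heightIdeal_of_autInvariant hn h1 h2
  have hP : I.IsPrime → AutInvariant (univF p n) (hazF p (prm n 0)) I →
      ∃ h ≤ n, I = heightIdeal p n h := fun h1 h2 =>
    (hA h1.isRadical h2).resolve_left h1.ne_top
  have hG : (∃ h ≤ n, I = heightIdeal p n h) →
      I.IsPrime ∧ GnInvariant (univF p n) (hazF p (prm n 0)) I := by
    rintro ⟨h, hh, rfl⟩
    exact ⟨heightIdeal_isPrime hn h, heightIdeal_gnInvariant hn hh⟩
  have hT : I = ⊤ → I.IsRadical ∧ GnInvariant (univF p n) (hazF p (prm n 0)) I := by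
    rintro rfl
    refine ⟨?_, ?_⟩
    · intro x _
      trivial
    · intro σ γ _ φ _
      exact Ideal.map_top _
  refine ⟨⟨fun h => hP h.1 h.2.autInvariant, fun h => hG h⟩,
    ⟨fun h => hA h.1 h.2.autInvariant, ?_⟩,
    ⟨fun h => hP h.1 h.2, fun h => ⟨(hG h).1, (hG h).2.autInvariant⟩⟩,
    ⟨fun h => hA h.1 h.2, ?_⟩⟩
  · rintro (h | h)
    · exact hT h
    · exact ⟨(hG h).1.isRadical, (hG h).2⟩
  · rintro (h | h)
    · exact ⟨(hT h).1, (hT h).2.autInvariant⟩
    · exact ⟨(hG h).1.isRadical, (hG h).2.autInvariant⟩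

end Vale.Agent.Results.P217.InvariantIdeals
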